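import Vale.Agent.P208.Main

namespace Vale.Agent.Results.P208.Counterexample

open Vale.Agent.P208

theorem result : ∃ X : Set (lp (fun _ : ℕ => ℝ) 2), Doubling X ∧
    ∀ (k : ℕ) (D : ℝ) (f : X → EuclideanSpace ℝ (Fin k)), ¬ BiLip X k D f := by
  have he : Orthonormal ℝ (fun i : ℕ => (lp.single 2 i (1 : ℝ) : lp (fun _ : ℕ => ℝ) 2)) := by
    rw [orthonormal_iff_ite]
    intro i j
    rw [lp.inner_single_left, lp.single_apply]
    by_cases h : i = j
    · subst h; simp
    · simp [h]
  exact ⟨XX _, doubling he, not_biLip he⟩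

end Vale.Agent.Results.P208.Counterexample
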